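import Vale.Agent.P043.T2.FinDefs

namespace Vale.Agent.P043.T2.H431

open Vale.Agent.P043.T2

theorem v25 (k : ZMod 25) : k.val < 25 := ZMod.val_lt k
theorem v49 (k : ZMod 49) : k.val < 49 := ZMod.val_lt k

theorem a25 : ∀ k : ZMod 25, ((k.val % 5 + 5 * (k.val / 5) : ℕ) : ZMod 25) = k := by
  decide +kernel

theorem a49 : ∀ k : ZMod 49, ((k.val % 7 + 7 * (k.val / 7) : ℕ) : ZMod 49) = k := by
  decide +kernel

theorem c25 : ∀ (k' s : Fin 5), (((k' : ℕ) + 5 * (s : ℕ) : ℕ) : ZMod 25).val = k' + 5 * s := by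
  decide +kernel

theorem c49 : ∀ (k' s : Fin 7), (((k' : ℕ) + 7 * (s : ℕ) : ℕ) : ZMod 49).val = k' + 7 * s := by
  decide +kernel

theorem b49 : ∀ (h l : ZMod 49),
    h - ((7 * ((h - l).val / 7) + (h.val + 49 - l.val % 7) % 7 : ℕ) : ZMod 49) = l := by
  decide +kernel

theorem b25 : ∀ (h l : ZMod 25),
    h - ((5 * ((h - l).val / 5) + (h.val + 25 - l.val % 5) % 5 : ℕ) : ZMod 25) = l := by
  decide +kernel

theorem d49 : ∀ (h : ZMod 49) (l' f : Fin 7),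
    (h - ((7 * (f : ℕ) + (h.val + 49 - l') % 7 : ℕ) : ZMod 49)).val % 7 = l' ∧
      (h - (h - ((7 * (f : ℕ) + (h.val + 49 - l') % 7 : ℕ) : ZMod 49))).val / 7 = f := by
  decide +kernel

theorem d25 : ∀ (h : ZMod 25) (l' f : Fin 5),
    (h - ((5 * (f : ℕ) + (h.val + 25 - l') % 5 : ℕ) : ZMod 25)).val % 5 = l' ∧
      (h - (h - ((5 * (f : ℕ) + (h.val + 25 - l') % 5 : ℕ) : ZMod 25))).val / 5 = f := by
  decide +kernel

theorem cnt0 : ∀ (a : Fin 2) (b : Fin 3) (k' : Fin 5) (l' : Fin 7), cc a b = false →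
    (Finset.univ.filter fun p : Fin 5 × Fin 7 =>
      kb0 a b p.2 = k' ∧ lb0 a b p.2 p.1 = l').card = kc (tab l' k') a b := by
  decide +kernel

theorem cnt1 : ∀ (a : Fin 2) (b : Fin 3) (k' : Fin 5) (l' : Fin 7), cc a b = true →
    (Finset.univ.filter fun p : Fin 5 × Fin 7 =>
      lb1 p.1 = l' ∧ kb1 a p.1 p.2 = k').card = kc (tab l' k') a b := by
  decide +kernel

theorem fb2a (a : Fin 2) (b : Fin 3) (h : ZMod 49) (k' : Fin 5) (l' : Fin 7)
    (hc : cc a b = false) :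
    (Finset.univ.filter fun p : ZMod 25 × ZMod 49 =>
      b0 a b h p.1 p.2 = true ∧ p.1.val % 5 = k' ∧ p.2.val % 7 = l').card =
      kc (tab l' k') a b := by
  rw [← cnt0 a b k' l' hc]
  refine Finset.card_bij'
    (fun p _ => ((⟨p.1.val / 5, by have := v25 p.1; omega⟩ : Fin 5),
      (⟨(h - p.2).val / 7, by have := v49 (h - p.2); omega⟩ : Fin 7)))
    (fun q _ => ((((k' : ℕ) + 5 * (q.1 : ℕ) : ℕ) : ZMod 25),
      h - ((7 * (q.2 : ℕ) + (h.val + 49 - l') % 7 : ℕ) : ZMod 49))) ?_ ?_ ?_ ?_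
  · rintro ⟨k, l⟩ hp
    simp only [Finset.mem_filter, Finset.mem_univ, true_and, b0, Bool.and_eq_true,
      decide_eq_true_eq] at hp ⊢
    obtain ⟨⟨h1, h2⟩, h3, h4⟩ := hp
    exact ⟨by rw [← h1, h3], by rw [← h2, h4]⟩
  · rintro ⟨s, f⟩ hp
    simp only [Finset.mem_filter, Finset.mem_univ, true_and, b0, Bool.and_eq_true,
      decide_eq_true_eq] at hp ⊢
    obtain ⟨h1, h2⟩ := hp
    have e1 := c25 k' s
    have e2 := d49 h l' f
    have hk := k'.isLt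
    have m1 : ((k' : ℕ) + 5 * (s : ℕ)) % 5 = k' := by omega
    have m2 : ((k' : ℕ) + 5 * (s : ℕ)) / 5 = s := by omega
    rw [e1, e2.2, e2.1, m1, m2]
    exact ⟨⟨h1.symm, h2.symm⟩, rfl, rfl⟩
  · rintro ⟨k, l⟩ hp
    simp only [Finset.mem_filter, Finset.mem_univ, true_and, b0, Bool.and_eq_true,
      decide_eq_true_eq] at hp
    obtain ⟨⟨h1, h2⟩, h3, h4⟩ := hp
    refine Prod.ext ?_ ?_
    · show (((k' : ℕ) + 5 * (k.val / 5) : ℕ) : ZMod 25) = k
      rw [← h3]; exact a25 k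
    · show h - ((7 * ((h - l).val / 7) + (h.val + 49 - l') % 7 : ℕ) : ZMod 49) = l
      rw [← h4]; exact b49 h l
  · rintro ⟨s, f⟩ hp
    have e1 := c25 k' s
    have e2 := d49 h l' f
    have hk := k'.isLt
    refine Prod.ext (Fin.ext ?_) (Fin.ext ?_)
    · show (((k' : ℕ) + 5 * (s : ℕ) : ℕ) : ZMod 25).val / 5 = s
      rw [e1]; omega
    · exact e2.2

theorem fb2b (a : Fin 2) (b : Fin 3) (h : ZMod 25) (k' : Fin 5) (l' : Fin 7)
    (hc : cc a b = true) :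
    (Finset.univ.filter fun p : ZMod 25 × ZMod 49 =>
      b1 a h p.1 p.2 = true ∧ p.1.val % 5 = k' ∧ p.2.val % 7 = l').card =
      kc (tab l' k') a b := by
  rw [← cnt1 a b k' l' hc]
  refine Finset.card_bij'
    (fun p _ => ((⟨(h - p.1).val / 5, by have := v25 (h - p.1); omega⟩ : Fin 5),
      (⟨p.2.val / 7, by have := v49 p.2; omega⟩ : Fin 7)))
    (fun q _ => (h - ((5 * (q.1 : ℕ) + (h.val + 25 - k') % 5 : ℕ) : ZMod 25),
      (((l' : ℕ) + 7 * (q.2 : ℕ) : ℕ) : ZMod 49))) ?_ ?_ ?_ ?_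
  · rintro ⟨k, l⟩ hp
    simp only [Finset.mem_filter, Finset.mem_univ, true_and, b1, Bool.and_eq_true,
      decide_eq_true_eq] at hp ⊢
    obtain ⟨⟨h1, h2⟩, h3, h4⟩ := hp
    exact ⟨by rw [← h1, h4], by rw [← h2, h3]⟩
  · rintro ⟨f, s⟩ hp
    simp only [Finset.mem_filter, Finset.mem_univ, true_and, b1, Bool.and_eq_true,
      decide_eq_true_eq] at hp ⊢
    obtain ⟨h1, h2⟩ := hp
    have e1 := c49 l' s
    have e2 := d25 h k' f
    have hk := l'.isLt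
    have m1 : ((l' : ℕ) + 7 * (s : ℕ)) % 7 = l' := by omega
    have m2 : ((l' : ℕ) + 7 * (s : ℕ)) / 7 = s := by omega
    rw [e1, e2.2, e2.1, m1, m2]
    exact ⟨⟨h1.symm, h2.symm⟩, rfl, rfl⟩
  · rintro ⟨k, l⟩ hp
    simp only [Finset.mem_filter, Finset.mem_univ, true_and, b1, Bool.and_eq_true,
      decide_eq_true_eq] at hp
    obtain ⟨⟨h1, h2⟩, h3, h4⟩ := hp
    refine Prod.ext ?_ ?_
    · show h - ((5 * ((h - k).val / 5) + (h.val + 25 - k') % 5 : ℕ) : ZMod 25) = k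
      rw [← h3]; exact b25 h k
    · show (((l' : ℕ) + 7 * (l.val / 7) : ℕ) : ZMod 49) = l
      rw [← h4]; exact a49 l
  · rintro ⟨f, s⟩ hp
    have e1 := c49 l' s
    have e2 := d25 h k' f
    have hk := l'.isLt
    refine Prod.ext (Fin.ext ?_) (Fin.ext ?_)
    · exact e2.2
    · show (((l' : ℕ) + 7 * (s : ℕ) : ℕ) : ZMod 49).val / 7 = s
      rw [e1]; omega

theorem st_FB2 : StFB2 := ⟨fb2a, fb2b⟩

end Vale.Agent.P043.T2.H431
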